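import Vale.Agent.Lib.P062.Full.Main

namespace Vale.Agent.Results.P062.A0_full

open Vale.Agent.Lib.P062

/-- Maker has a winning strategy in the achievement game for Snaky on the initially empty
board `ℤ × ℤ`, with Maker moving first and no handicap. -/
theorem result : MakerWins ∅ ∅ := Full.snakyWin

end Vale.Agent.Results.P062.A0_full
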