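import Vale.Agent.Lib.P062.Part.Main

namespace Vale.Agent.Results.P062.A_nonadjacent

open Vale.Agent.Lib.P062

/-- After Maker's first stone at the origin, Maker wins against every first reply of Breaker
other than the eight cells next to the origin. -/
theorem result (d : Cell) (hd : ¬ (d.1.natAbs ≤ 1 ∧ d.2.natAbs ≤ 1)) :
    MakerWins {((0 : ℤ), (0 : ℤ))} {d} := by
  apply Part.nonadjacent d
  cases h : Part.exc d with
  | false => rfl
  | true =>
    exfalso
    apply hd
    simp only [Part.exc, Bool.and_eq_true] at h
    exact ⟨Nat.le_of_ble_eq_true h.1, Nat.le_of_ble_eq_true h.2⟩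

end Vale.Agent.Results.P062.A_nonadjacent
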