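import Vale.Agent.Lib.P062.Part3.Main

namespace Vale.Agent.Results.P062.B_nonorth

open Vale.Agent.Lib.P062

/-- After Maker's first stone at the origin, Maker wins against every first reply of Breaker
other than the four cells orthogonally next to the origin. -/
theorem result (d : Cell) (h0 : d ≠ ((0 : ℤ), (0 : ℤ))) (hd : d.1.natAbs + d.2.natAbs ≠ 1) :
    MakerWins {((0 : ℤ), (0 : ℤ))} {d} := by
  apply Part3.nonorth d
  cases h : Part3.exc d with
  | false => rfl
  | true =>
    exfalso
    apply hd
    simp only [Part3.exc] at h
    exact Nat.eq_of_beq_eq_true h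

end Vale.Agent.Results.P062.B_nonorth
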