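import Vale.Agent.Lib.P062.Part3.Main
import Vale.Agent.Lib.P062.Part4.Main

namespace Vale.Agent.Results.P062.C_reduce

open Vale.Agent.Lib.P062

/-- The whole game reduces to one position: Maker holds (0,0), (0,1), Breaker holds (1,0), (0,2),
Maker to move. -/
theorem result
    (h : MakerWins {((0 : ℤ), (0 : ℤ)), ((0 : ℤ), (1 : ℤ))} {((1 : ℤ), (0 : ℤ)), ((0 : ℤ), (2 : ℤ))}) :
    MakerWins ∅ ∅ := by
  have w := Part4.secondStone h
  have img : ∀ (s : Bool) (a b : ℤ), (a = 1 ∨ a = -1) → (b = 1 ∨ b = -1) →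
      MakerWins {((0 : ℤ), (0 : ℤ))} {act s a b ((1 : ℤ), (0 : ℤ))} := by
    intro s a b ha hb
    have := V2.MakerWins.image_act s a b ha hb w
    rw [Finset.image_singleton, Finset.image_singleton] at this
    have h0 : act s a b ((0 : ℤ), (0 : ℤ)) = ((0 : ℤ), (0 : ℤ)) := by
      cases s <;> simp [act]
    rwa [h0] at this
  refine V2.makerWins_empty (fun d => ?_)
  cases hx : Part3.exc d with
  | false => exact Part3.nonorth d hx
  | true =>
    simp only [Part3.exc] at hx
    have hs := Nat.eq_of_beq_eq_true hx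
    obtain ⟨x, y⟩ := d
    simp only at hs
    have hc : (x = 1 ∧ y = 0) ∨ (x = -1 ∧ y = 0) ∨ (x = 0 ∧ y = 1) ∨ (x = 0 ∧ y = -1) := by
      omega
    rcases hc with ⟨rfl, rfl⟩ | ⟨rfl, rfl⟩ | ⟨rfl, rfl⟩ | ⟨rfl, rfl⟩
    · simpa [act] using img false 1 1 (by simp) (by simp)
    · simpa [act] using img false (-1) 1 (by simp) (by simp)
    · simpa [act] using img true 1 1 (by simp) (by simp)
    · simpa [act] using img true 1 (-1) (by simp) (by simp)

end Vale.Agent.Results.P062.C_reduce
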